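import Vale.Agent.P184.Assembly

/-!
# Vanishing of the trace of `l1` idempotents at classes of infinite order elements
-/

namespace Vale.Agent.Results.P184.InfiniteOrder

open Vale.Agent.P184

universe u v

theorem result :
    -- constraints on a class at which some idempotent over `l1(G)` has non-zero trace
    (∀ (G : Type u) [Group G] (q : ℕ) (e : Matrix (Fin q) (Fin q) (G → ℂ)), IsL1Idempotent e →
      ∀ h : G, hsTrace e (ConjClasses.mk h) ≠ 0 →
      ∃ (H : Subgroup G) (x : H), H.FG ∧ (x : G) = h ∧
        QuasiUnipotent.{u, v} x ∧ PosCharTorsion.{u, v} x ∧ BolicNeutral.{u, v} x ∧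
        CommensBounded.{u, v} x ∧
        (Amenable (Subgroup.centralizer {x}) → Distorted x) ∧ ¬ Tame x) ∧
    -- all spaces with the quadrilateral inequality (e.g. all CAT(0) spaces) are strongly bolic
    (∀ (X : Type v) [PseudoMetricSpace X], Quadrilateral X → Bolic X) ∧
    -- the `l1`-Bass conjecture for torsion free groups that are locally and residually linear in
    -- positive characteristic
    (∀ (G : Type u) [Group G], (∀ g : G, IsOfFinOrder g → g = 1) →
      (∀ H : Subgroup G, H.FG → ∀ h : H, h ≠ 1 → ¬ PosCharTorsion.{u, v} h) → L1Bass G) ∧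
    -- the `l1`-Bass conjecture for groups with finitely many classes of finite order elements in
    -- which all other elements are locally tame
    (∀ (G : Type u) [Group G], {C : ConjClasses G | ∃ g ∈ C.carrier, IsOfFinOrder g}.Finite →
      (∀ H : Subgroup G, H.FG → ∀ h : H, ¬ IsOfFinOrder h → Tame h) → L1Bass G) := by
  refine ⟨?_, ?_, ?_, ?_⟩
  · intro G _ q e he h hne
    obtain ⟨H, hh, hfg, hnt⟩ := exists_not_tame he hne
    have hFG : Group.FG H := (Group.fg_iff_subgroup_fg H).2 hfg
    refine ⟨H, ⟨h, hh⟩, hfg, rfl, ?_, ?_, ?_, ?_, ?_, hnt⟩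
    · intro K _ n M lam hroot
      by_contra hcon
      push Not at hcon
      exact hnt ((locallyTame_of_eigenvalue M lam hroot hcon).tame_of_fg hFG)
    · intro K _ n M hchar
      by_contra hcon
      exact hnt ((locallyTame_of_charP (ringChar K) hchar M hcon).tame_of_fg hFG)
    · intro X _ _ _ hX o c hc
      by_contra hcon
      push Not at hcon
      exact hnt (tame_of_bolic hX o hc hcon)
    · intro Y _ M hM
      by_contra hcon
      push Not at hcon
      exact hnt (tame_of_commensurating M hM hcon)
    · intro ham L hL c hc
      by_contra hcon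
      push Not at hcon
      exact hnt (tame_of_amenable_centralizer hL hc hcon ham)
  · intro X _ hX
    exact bolic_of_quadrilateral hX
  · intro G _ htf hlin
    apply l1Bass_of_locallyTame
    · intro h hh H hhH hfg
      have hFG : Group.FG H := (Group.fg_iff_subgroup_fg H).2 hfg
      have hne : (⟨h, hhH⟩ : H) ≠ 1 := by
        intro h1
        apply hh
        have : h = 1 := congrArg Subtype.val h1
        rw [this]
        exact IsOfFinOrder.one
      have h1 := hlin H hfg ⟨h, hhH⟩ hne
      unfold PosCharTorsion at h1
      push Not at h1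
      obtain ⟨K, _, n, M, h1, h2⟩ := h1
      exact (locallyTame_of_charP (ringChar K) h1 M h2).tame_of_fg hFG
    · apply (Set.finite_singleton (1 : ConjClasses G)).subset
      rintro C ⟨g, hg, hg'⟩
      rw [htf g hg', ConjClasses.mem_carrier_iff_mk_eq] at hg
      rw [Set.mem_singleton_iff, ← hg]
      rfl
  · intro G _ hfin ht
    apply l1Bass_of_locallyTame _ hfin
    intro h hh H hhH hfg
    apply ht H hfg
    intro hcon
    exact hh (H.subtype.isOfFinOrder hcon)

end Vale.Agent.Results.P184.InfiniteOrder
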